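import Vale.Agent.P131.Chain.Main

/-!
# P131: chains in the other direction, on Hilbert spaces
-/

namespace Vale.Agent.P131.Chain

open Set Metric Filter Topology Polynomial
open scoped InnerProductSpace

variable {H : Type*} [NormedAddCommGroup H] [InnerProductSpace ℂ H] [CompleteSpace H]

/-- the adjoint of a compact operator is compact -/
theorem compact_adjoint (K : H →L[ℂ] H) (hK : IsCompactOperator K) :
    IsCompactOperator (ContinuousLinearMap.adjoint K) := by
  set L := ContinuousLinearMap.adjoint K with hL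
  have hA : IsCompactOperator (K * L) := hK.comp_clm L
  have htb : TotallyBounded ((K * L) '' closedBall 0 1) :=
    (hA.isCompact_closure_image_of_bounded isBounded_closedBall).totallyBounded.subset
      subset_closure
  have hkey : ∀ x : H, ‖L x‖ ^ 2 ≤ ‖(K * L) x‖ * ‖x‖ := fun x => by
    have h1 : ⟪(K * L) x, x⟫_ℂ = ⟪L x, L x⟫_ℂ := by
      show ⟪K (L x), x⟫_ℂ = ⟪L x, L x⟫_ℂ
      rw [hL, ContinuousLinearMap.adjoint_inner_right]
    have h2 : ‖⟪L x, L x⟫_ℂ‖ = ‖L x‖ ^ 2 := by
      rw [inner_self_eq_norm_sq_to_K]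
      simp
    rw [← h2, ← h1]
    exact norm_inner_le_norm _ _
  have htb2 : TotallyBounded (L '' closedBall 0 1) := by
    rw [Metric.totallyBounded_iff]
    intro ε hε
    obtain ⟨t, ht, htf, hcov⟩ := Metric.finite_approx_of_totallyBounded htb (ε ^ 2 / 4)
      (by positivity)
    -- choose preimages
    have hex : ∀ y ∈ t, ∃ x ∈ closedBall (0 : H) 1, (K * L) x = y := fun y hy => ht hy
    choose! f hf1 hf2 using hex
    refine ⟨(fun y => L (f y)) '' t, htf.image _, ?_⟩
    rintro _ ⟨x, hx, rfl⟩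
    have h3 : (K * L) x ∈ ⋃ y ∈ t, ball y (ε ^ 2 / 4) := hcov ⟨x, hx, rfl⟩
    simp only [mem_iUnion, exists_prop] at h3
    obtain ⟨y, hy, hxy⟩ := h3
    simp only [mem_iUnion, exists_prop]
    refine ⟨L (f y), ⟨y, hy, rfl⟩, ?_⟩
    rw [mem_ball, dist_eq_norm] at hxy ⊢
    have h4 := hkey (x - f y)
    rw [map_sub, map_sub, hf2 y hy] at h4
    have h5 : ‖x - f y‖ ≤ 2 := by
      have h6 := mem_closedBall_zero_iff.1 hx
      have h7 := mem_closedBall_zero_iff.1 (hf1 y hy)
      exact (norm_sub_le _ _).trans (by linarith)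
    have h8 : ‖L x - L (f y)‖ ^ 2 < ε ^ 2 := by
      have h9 : ‖(K * L) x - y‖ * ‖x - f y‖ ≤ ε ^ 2 / 4 * 2 :=
        mul_le_mul hxy.le h5 (norm_nonneg _) (by positivity)
      nlinarith [sq_nonneg ε, pow_pos hε 2]
    exact lt_of_pow_lt_pow_left₀ 2 hε.le h8
  exact (isCompactOperator_iff_isCompact_closure_image_closedBall (L : H →ₗ[ℂ] H) one_pos).2
    (htb2.closure.isCompact_of_isClosed isClosed_closure)

/-- hyperinvariant subspaces of the adjoint -/
theorem hasHyperinvariant_of_adjoint {T : H →L[ℂ] H}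
    (h : HasHyperinvariant (ContinuousLinearMap.adjoint T)) : HasHyperinvariant T := by
  obtain ⟨M, hcl, hbot, htop, hinv⟩ := h
  have : CompleteSpace M := hcl.completeSpace_coe
  refine ⟨Mᗮ, M.isClosed_orthogonal, ?_, ?_, ?_⟩
  · intro h
    exact htop ((Submodule.orthogonal_eq_bot_iff).1 h)
  · intro h
    apply hbot
    rw [← Submodule.orthogonal_orthogonal M, h, Submodule.top_orthogonal_eq_bot]
  · intro A hA x hx
    rw [Submodule.mem_orthogonal] at hx ⊢
    intro u hu
    rw [← ContinuousLinearMap.adjoint_inner_left]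
    refine hx _ (hinv _ ?_ u hu)
    have h1 := congrArg ContinuousLinearMap.adjoint hA
    have h2 : ∀ B C : H →L[ℂ] H, ContinuousLinearMap.adjoint (B * C) =
        ContinuousLinearMap.adjoint C * ContinuousLinearMap.adjoint B :=
      fun B C => ContinuousLinearMap.adjoint_comp B C
    rw [h2, h2] at h1
    exact h1.symm

/-- **Main theorem**, chains `S_(n+1) K = K S_n` on Hilbert spaces. -/
theorem main_dual (T K : H →L[ℂ] H) (hT : ∀ c : ℂ, T ≠ c • 1) (hK0 : K ≠ 0)
    (hK : IsCompactOperator K) (S : ℕ → H →L[ℂ] H) (hS0 : S 0 = T)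
    (hSA : ∀ n (A : H →L[ℂ] H), A * T = T * A → A * S n = S n * A)
    (hSK : ∀ n, S (n + 1) * K = K * S n)
    (hgr : ∀ ε : ℝ, 0 < ε → ∃ᶠ n : ℕ in atTop, ‖S n‖ ≤ Real.exp (ε * n)) :
    HasHyperinvariant T := by
  have h2 : ∀ B C : H →L[ℂ] H, ContinuousLinearMap.adjoint (B * C) =
      ContinuousLinearMap.adjoint C * ContinuousLinearMap.adjoint B :=
    fun B C => ContinuousLinearMap.adjoint_comp B C
  have h3 : ∀ B : H →L[ℂ] H, ContinuousLinearMap.adjoint (ContinuousLinearMap.adjoint B) = B :=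
    fun B => ContinuousLinearMap.adjoint_adjoint B
  apply hasHyperinvariant_of_adjoint
  refine main (ContinuousLinearMap.adjoint T) (ContinuousLinearMap.adjoint K) ?_ ?_
    (compact_adjoint K hK) (fun n => ContinuousLinearMap.adjoint (S n)) ?_ ?_ ?_ ?_
  · intro c hc
    apply hT (star c)
    rw [← h3 T, hc]
    have h4 : ContinuousLinearMap.adjoint (c • (1 : H →L[ℂ] H)) =
        star c • ContinuousLinearMap.adjoint (1 : H →L[ℂ] H) := by
      simpa using (ContinuousLinearMap.adjoint (𝕜 := ℂ) (E := H) (F := H)).map_smulₛₗ c 1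
    have h5 : ContinuousLinearMap.adjoint (1 : H →L[ℂ] H) = 1 := by
      rw [← ContinuousLinearMap.star_eq_adjoint, star_one]
    rw [h4, h5]
  · intro h
    apply hK0
    rw [← h3 K, h, map_zero]
  · show ContinuousLinearMap.adjoint (S 0) = _
    rw [hS0]
  · intro n A hA
    have h4 := congrArg ContinuousLinearMap.adjoint hA
    rw [h2, h2, h3] at h4
    have h5 := hSA n (ContinuousLinearMap.adjoint A) h4.symm
    have h6 := congrArg ContinuousLinearMap.adjoint h5
    rw [h2, h2, h3] at h6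
    exact h6.symm
  · intro n
    have h4 := congrArg ContinuousLinearMap.adjoint (hSK n)
    rw [h2, h2] at h4
    exact h4.symm
  · intro ε hε
    refine (hgr ε hε).mono fun n hn => ?_
    show ‖ContinuousLinearMap.adjoint (S n)‖ ≤ _
    rwa [LinearIsometryEquiv.norm_map]

end Vale.Agent.P131.Chain
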