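import Vale.Agent.P131.Chain.Defs
import Vale.Agent.P131.Chain.Dual
import Vale.Agent.P131.Basin
import Vale.Agent.P131.Final

/-!
# P131: polynomial chains
-/

namespace Vale.Agent.P131.Chain

open Set Metric Filter Topology Polynomial
open Vale.Agent.P131.Basin (it Bd maj E maj_nonneg)

variable {X : Type*} [NormedAddCommGroup X] [NormedSpace ℂ X]

theorem subexponential_of_bounded {S : ℕ → X →L[ℂ] X} {B : ℝ} (h : ∀ᶠ n in atTop, ‖S n‖ ≤ B) :
    Subexponential S := by
  intro ε hε
  have h1 : Tendsto (fun n : ℕ => Real.exp (ε * n)) atTop atTop :=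
    Real.tendsto_exp_atTop.comp (tendsto_natCast_atTop_atTop.const_mul_atTop hε)
  refine Eventually.frequently ?_
  filter_upwards [h, h1.eventually_ge_atTop B] with n hn hn2
  exact hn.trans hn2

theorem it_comm {T A : X →L[ℂ] X} (h : A * T = T * A) (p : ℂ[X]) :
    ∀ n, A * it p T n = it p T n * A
  | 0 => h
  | n + 1 => aeval_comm_of (it_comm h p n) p

theorem it_forward {T K : X →L[ℂ] X} {p : ℂ[X]} (h : T * K = K * aeval T p) :
    ∀ n, it p T n * K = K * it p T (n + 1)
  | 0 => h
  | n + 1 => aeval_semiconj (it_forward h n) p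

theorem it_backward {T K : X →L[ℂ] X} {p : ℂ[X]} (h : aeval T p * K = K * T) :
    ∀ n, it p T (n + 1) * K = K * it p T n
  | 0 => h
  | n + 1 => aeval_semiconj (it_backward h n) p

/-- bounded iterates from a majorant -/
theorem subexp_of_maj {T : X →L[ℂ] X} {p : ℂ[X]} {s : ℝ} (hs : 0 < s)
    (hp : ∑ i ∈ Finset.range (p.natDegree + 1), ‖p.coeff i‖ * s ^ i ≤ s)
    (hT : ∃ B : ℝ, ∀ n : ℕ, ‖T ^ n‖ ≤ B * s ^ n) : Subexponential (it p T) := by
  obtain ⟨B, hB⟩ := hT
  have hB0 : 0 ≤ B := by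
    have := hB 0
    simp only [pow_zero, mul_one] at this
    exact (norm_nonneg _).trans this
  have key : ∀ n, Bd T s (it p T n) s := by
    intro n
    induction n with
    | zero => exact Bd.self
    | succ n ih =>
      intro x r hr hx k
      have h1 := Bd.aeval hs.le ih p x r hr hx k
      refine h1.trans ?_
      have h2 : maj p s ≤ s := hp
      have h3 : 0 ≤ s ^ k := by positivity
      exact mul_le_mul_of_nonneg_right (mul_le_mul_of_nonneg_right h2 hr) h3
  refine subexponential_of_bounded (B := s * B) (Eventually.of_forall fun n => ?_)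
  have h1 := key n 1 B hB0 (fun k => by rw [one_mul]; exact hB k) 0
  simpa using h1

/-- iterates in the basin of an attracting fixed point -/
theorem subexp_of_basin [CompleteSpace X] [Nontrivial X] {T : X →L[ℂ] X} {p : ℂ[X]} {z₀ : ℂ}
    (hp0 : p.eval z₀ = z₀) (hp1 : ‖p.derivative.eval z₀‖ < 1)
    (hσ : ∀ z ∈ spectrum ℂ T, Tendsto (fun k => (fun z => p.eval z)^[k] z) atTop (𝓝 z₀)) :
    Subexponential (it p T) := by
  have h := Basin.tendsto_it p T z₀ hp0 hp1 hσ
  have h1 := h.eventually_le_const (zero_lt_one (α := ℝ))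
  refine subexponential_of_bounded (B := 1 + ‖algebraMap ℂ (X →L[ℂ] X) z₀‖) (h1.mono fun n hn => ?_)
  have h2 : it p T n = (it p T n - algebraMap ℂ (X →L[ℂ] X) z₀) + algebraMap ℂ (X →L[ℂ] X) z₀ := by
    abel
  rw [h2]
  exact (norm_add_le _ _).trans (by linarith)

theorem poly_main {T K : X →L[ℂ] X} (hT : ∀ c : ℂ, T ≠ c • 1) (hK0 : K ≠ 0)
    (hK : IsCompactOperator K) {p : ℂ[X]} (h : T * K = K * aeval T p)
    (hgr : Subexponential (it p T)) : HasHyperinvariant T :=
  main T K hT hK0 hK (it p T) rfl (fun n _ hA => it_comm hA p n) (it_forward h) hgr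

theorem poly_main_dual {H : Type*} [NormedAddCommGroup H] [InnerProductSpace ℂ H]
    [CompleteSpace H] {T K : H →L[ℂ] H} (hT : ∀ c : ℂ, T ≠ c • 1) (hK0 : K ≠ 0)
    (hK : IsCompactOperator K) {p : ℂ[X]} (h : aeval T p * K = K * T)
    (hgr : Subexponential (it p T)) : HasHyperinvariant T :=
  main_dual T K hT hK0 hK (it p T) rfl (fun n _ hA => it_comm hA p n) (it_backward h) hgr

end Vale.Agent.P131.Chain
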