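import Mathlib

/-!
# P131: covering numbers of the powers of a compact operator
-/

namespace Vale.Agent.P131.Chain

open Set Metric Filter Topology Polynomial

variable {X : Type*} [NormedAddCommGroup X] [NormedSpace ℂ X]

/-- `C ^ n` maps the unit ball into the union of `m ^ n` balls of radius `4 ^ (-n)`. -/
theorem cover_pow (C : X →L[ℂ] X) (hC : IsCompactOperator C) :
    ∃ m : ℕ, 0 < m ∧ ∀ n : ℕ, ∃ t : Finset X, t.card ≤ m ^ n ∧
      ∀ x : X, ‖x‖ ≤ 1 → ∃ c ∈ t, ‖(C ^ n) x - c‖ ≤ (1 / 4 : ℝ) ^ n := by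
  classical
  have hk : IsCompact (closure (C '' closedBall 0 1)) :=
    hC.isCompact_closure_image_of_bounded isBounded_closedBall
  obtain ⟨t0, -, ht0f, ht0⟩ := hk.finite_cover_balls (e := 1 / 4) (by norm_num)
  obtain ⟨t1, rfl⟩ : ∃ t : Finset X, (t : Set X) = t0 := ⟨ht0f.toFinset, by simp⟩
  have h1 : ∀ x : X, ‖x‖ ≤ 1 → ∃ c ∈ t1, ‖C x - c‖ ≤ 1 / 4 := fun x hx => by
    have hx' : C x ∈ closure (C '' closedBall 0 1) :=
      subset_closure ⟨x, by rwa [mem_closedBall_zero_iff], rfl⟩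
    have h2 := ht0 hx'
    simp only [mem_iUnion, exists_prop] at h2
    obtain ⟨c, hc, hxc⟩ := h2
    rw [mem_ball, dist_eq_norm] at hxc
    exact ⟨c, hc, hxc.le⟩
  refine ⟨t1.card + 1, Nat.succ_pos _, fun n => ?_⟩
  induction n with
  | zero =>
    refine ⟨{0}, by simp, fun x hx => ⟨0, by simp, ?_⟩⟩
    simpa using hx
  | succ n ih =>
    obtain ⟨t, htc, ht⟩ := ih
    refine ⟨(t1 ×ˢ t).image (fun p => (C ^ n) p.1 + (1 / 4 : ℂ) • p.2), ?_, fun x hx => ?_⟩
    · refine Finset.card_image_le.trans ?_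
      rw [Finset.card_product, pow_succ, mul_comm]
      exact Nat.mul_le_mul htc (Nat.le_succ _)
    · obtain ⟨a, ha, hax⟩ := h1 x hx
      set u : X := (4 : ℂ) • (C x - a) with hu
      have hu1 : ‖u‖ ≤ 1 := by
        rw [hu, norm_smul]
        have : ‖(4 : ℂ)‖ = 4 := by norm_num
        rw [this]
        linarith
      obtain ⟨b, hb, hbu⟩ := ht u hu1
      refine ⟨(C ^ n) a + (1 / 4 : ℂ) • b,
        Finset.mem_image.2 ⟨(a, b), Finset.mem_product.2 ⟨ha, hb⟩, rfl⟩, ?_⟩
      have e1 : (C ^ (n + 1)) x = (C ^ n) (C x) := by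
        rw [pow_succ]; rfl
      have e2 : C x = a + (1 / 4 : ℂ) • u := by
        rw [hu, smul_smul]
        norm_num
      have e3 : (C ^ (n + 1)) x - ((C ^ n) a + (1 / 4 : ℂ) • b) =
          (1 / 4 : ℂ) • ((C ^ n) u - b) := by
        rw [e1, e2, map_add, map_smul, smul_sub]
        abel
      rw [e3, norm_smul]
      have : ‖(1 / 4 : ℂ)‖ = 1 / 4 := by norm_num
      rw [this, pow_succ, mul_comm]
      exact mul_le_mul_of_nonneg_right hbu (by norm_num)

/-- If `x = C x` and `p(T) C ^ n = C ^ n p(S_n)`, where the norms of the operators `S_n` grow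
subexponentially, then `x, T x, ..., T ^ (N - 1) x` are linearly dependent for some `N`. -/
theorem exists_dependent (C T : X →L[ℂ] X) (hC : IsCompactOperator C) (x : X) (hx : C x = x)
    (S : ℕ → X →L[ℂ] X) (hS : ∀ n, T * C ^ n = C ^ n * S n)
    (hgr : ∀ ε : ℝ, 0 < ε → ∃ᶠ n : ℕ in atTop, ‖S n‖ ≤ Real.exp (ε * n)) :
    ∃ N : ℕ, ¬ LinearIndependent ℂ (fun j : Fin N => (T ^ (j : ℕ)) x) := by
  classical
  obtain ⟨m, hm0, hm⟩ := cover_pow C hC
  obtain ⟨N, hN⟩ : ∃ N : ℕ, m < 2 ^ N := ⟨m, Nat.lt_two_pow_self⟩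
  refine ⟨N, fun hli => ?_⟩
  have hN0 : 0 < N := by
    rcases Nat.eq_zero_or_pos N with h | h
    · rw [h, pow_zero] at hN; omega
    · exact h
  have hxn : ∀ n, (C ^ n) x = x := fun n => by
    induction n with
    | zero => rfl
    | succ n ih =>
      rw [pow_succ]
      show (C ^ n) (C x) = x
      rw [hx, ih]
  have hSj : ∀ n j : ℕ, T ^ j * C ^ n = C ^ n * S n ^ j := fun n j => by
    induction j with
    | zero => simp
    | succ j ih => rw [pow_succ, mul_assoc, hS, ← mul_assoc, ih, mul_assoc, ← pow_succ]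
  -- antilipschitz constant
  set f : (Fin N → ℂ) →ₗ[ℂ] X := Fintype.linearCombination ℂ (fun j : Fin N => (T ^ (j : ℕ)) x)
    with hf
  have hker : LinearMap.ker f = ⊥ := by
    rw [hf]
    exact LinearMap.ker_eq_bot.2 hli.fintypeLinearCombination_injective
  obtain ⟨c, hc0, hc⟩ := f.exists_antilipschitzWith hker
  have hc0' : (0 : ℝ) < c := by exact_mod_cast hc0
  have hfn : ∀ a : Fin N → ℂ, ‖a‖ ≤ c * ‖f a‖ := fun a => by
    have := hc.le_mul_dist a 0
    simpa [dist_eq_norm] using this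
  -- the constants
  set g : ℝ := N * ‖x‖ + 1 with hg
  have hg0 : 0 < g := by positivity
  -- the main inequality for suitable `n`
  have key : ∀ n : ℕ, ‖S n‖ ≤ Real.exp (Real.log 2 / N * n) →
      ((2 : ℝ) ^ n / (4 * c * g)) ^ N ≤ (m : ℝ) ^ n := by
    intro n hSn
    have hNR : (0 : ℝ) < N := by exact_mod_cast hN0
    have hpow : ∀ j : ℕ, j < N → ‖S n ^ j‖ ≤ (2 : ℝ) ^ n := fun j hj => by
      rcases Nat.eq_zero_or_pos j with rfl | hj0
      · rw [pow_zero]
        refine (ContinuousLinearMap.norm_id_le (𝕜 := ℂ) (E := X)).trans ?_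
        exact one_le_pow₀ (by norm_num)
      · refine (norm_pow_le' _ hj0).trans ?_
        have h1 : (1 : ℝ) ≤ Real.exp (Real.log 2 / N * n) := by
          apply Real.one_le_exp
          have := Real.log_nonneg (one_le_two (α := ℝ))
          positivity
        calc ‖S n‖ ^ j ≤ Real.exp (Real.log 2 / N * n) ^ j :=
              pow_le_pow_left₀ (norm_nonneg _) hSn j
          _ ≤ Real.exp (Real.log 2 / N * n) ^ N := pow_le_pow_right₀ h1 hj.le
          _ = 2 ^ n := by
              rw [← Real.exp_nat_mul]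
              have : (N : ℝ) * (Real.log 2 / N * n) = n * Real.log 2 := by field_simp
              rw [this, Real.exp_nat_mul, Real.exp_log (by norm_num)]
    set L : ℕ := ⌊(2 : ℝ) ^ n / (4 * c * g)⌋₊ with hL
    have hL1 : (L : ℝ) ≤ 2 ^ n / (4 * c * g) := Nat.floor_le (by positivity)
    have hL2 : (2 : ℝ) ^ n / (4 * c * g) < L + 1 := Nat.lt_floor_add_one _
    obtain ⟨t, htc, ht⟩ := hm n
    -- lattice points
    have hpt : ∀ k : Fin N → Fin (L + 1), ∃ d ∈ t,
        ‖f (fun j => ((k j : ℕ) : ℂ)) - ((L * g * 2 ^ n : ℝ) : ℂ) • d‖ ≤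
          L * g * 2 ^ n * (1 / 4) ^ n := fun k => by
      set z : X := ∑ j : Fin N, ((k j : ℕ) : ℂ) • ((S n ^ (j : ℕ)) x) with hz
      have hfz : f (fun j => ((k j : ℕ) : ℂ)) = (C ^ n) z := by
        rw [hf, Fintype.linearCombination_apply, hz, map_sum]
        refine Finset.sum_congr rfl fun j _ => ?_
        rw [map_smul]
        congr 1
        have := congrArg (fun B : X →L[ℂ] X => B x) (hSj n j)
        show (T ^ (j : ℕ)) x = (C ^ n) ((S n ^ (j : ℕ)) x)
        have h2 : (T ^ (j : ℕ)) ((C ^ n) x) = (C ^ n) ((S n ^ (j : ℕ)) x) := this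
        rwa [hxn] at h2
      have hzn : ‖z‖ ≤ L * g * 2 ^ n := by
        rw [hz]
        calc ‖∑ j : Fin N, ((k j : ℕ) : ℂ) • ((S n ^ (j : ℕ)) x)‖
            ≤ ∑ j : Fin N, ‖((k j : ℕ) : ℂ) • ((S n ^ (j : ℕ)) x)‖ := norm_sum_le _ _
          _ ≤ ∑ _j : Fin N, (L : ℝ) * (2 ^ n * ‖x‖) := by
              refine Finset.sum_le_sum fun j _ => ?_
              rw [norm_smul, Complex.norm_natCast]
              refine mul_le_mul ?_ ?_ (norm_nonneg _) (Nat.cast_nonneg _)
              · exact_mod_cast Nat.lt_succ_iff.1 (k j).2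
              · exact ((S n ^ (j : ℕ)).le_opNorm x).trans
                  (mul_le_mul_of_nonneg_right (hpow j j.2) (norm_nonneg _))
          _ = L * (N * ‖x‖) * 2 ^ n := by
              rw [Finset.sum_const, Finset.card_univ, Fintype.card_fin, nsmul_eq_mul]
              ring
          _ ≤ L * g * 2 ^ n := by
              rw [hg]
              have : (0 : ℝ) ≤ L := Nat.cast_nonneg _
              have h2 : (0 : ℝ) < 2 ^ n := by positivity
              nlinarith [mul_nonneg this h2.le]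
      by_cases hR : (L * g * 2 ^ n : ℝ) = 0
      · obtain ⟨d, hd, -⟩ := ht 0 (by simp)
        refine ⟨d, hd, ?_⟩
        rw [hR] at hzn
        have hz0 : z = 0 := norm_le_zero_iff.1 hzn
        rw [hfz, hz0, map_zero, hR]
        simp
      · have hRpos : 0 < (L * g * 2 ^ n : ℝ) := lt_of_le_of_ne (by positivity) (Ne.symm hR)
        set R : ℝ := L * g * 2 ^ n with hRdef
        obtain ⟨d, hd, hdu⟩ := ht (((R⁻¹ : ℝ) : ℂ) • z) (by
          rw [norm_smul, Complex.norm_real, Real.norm_eq_abs, abs_of_pos (inv_pos.2 hRpos),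
            inv_mul_le_iff₀ hRpos, mul_one]
          exact hzn)
        refine ⟨d, hd, ?_⟩
        have e : f (fun j => ((k j : ℕ) : ℂ)) - (R : ℂ) • d =
            (R : ℂ) • ((C ^ n) (((R⁻¹ : ℝ) : ℂ) • z) - d) := by
          have hRC : (R : ℂ) ≠ 0 := by exact_mod_cast hRpos.ne'
          rw [hfz, smul_sub, map_smul, smul_smul]
          push_cast
          rw [mul_inv_cancel₀ hRC, one_smul]
        rw [e, norm_smul, Complex.norm_real, Real.norm_eq_abs, abs_of_pos hRpos]
        exact mul_le_mul_of_nonneg_left hdu hRpos.le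
    choose d hdt hd using hpt
    -- `d` is injective
    have hinj : Function.Injective d := by
      intro k k' hkk
      by_contra hne
      obtain ⟨j, hj⟩ : ∃ j, k j ≠ k' j := by
        by_contra h
        push Not at h
        exact hne (funext h)
      set a : Fin N → ℂ := fun j => ((k j : ℕ) : ℂ) - ((k' j : ℕ) : ℂ) with ha
      have h1 : (1 : ℝ) ≤ ‖a‖ := by
        refine le_trans ?_ (norm_le_pi_norm a j)
        have hj' : ((k j : ℕ) : ℤ) - ((k' j : ℕ) : ℤ) ≠ 0 := by
          intro h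
          apply hj
          apply Fin.ext
          omega
        have h2 : (1 : ℝ) ≤ |((((k j : ℕ) : ℤ) - ((k' j : ℕ) : ℤ) : ℤ) : ℝ)| := by
          exact_mod_cast Int.one_le_abs hj'
        have h3 : a j = ((((((k j : ℕ) : ℤ) - ((k' j : ℕ) : ℤ) : ℤ)) : ℝ) : ℂ) := by
          simp only [ha]; push_cast; ring
        rw [h3, Complex.norm_real, Real.norm_eq_abs]
        exact h2
      have h4 : f a = f (fun j => ((k j : ℕ) : ℂ)) - f (fun j => ((k' j : ℕ) : ℂ)) := by
        rw [← map_sub]; rfl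
      have h5 : ‖f a‖ ≤ 2 * (L * g * 2 ^ n * (1 / 4) ^ n) := by
        have e : f a = (f (fun j => ((k j : ℕ) : ℂ)) - ((L * g * 2 ^ n : ℝ) : ℂ) • d k) -
            (f (fun j => ((k' j : ℕ) : ℂ)) - ((L * g * 2 ^ n : ℝ) : ℂ) • d k') := by
          rw [h4, hkk]; abel
        rw [e]
        refine (norm_sub_le _ _).trans ?_
        have := hd k
        have := hd k'
        linarith
      have h6 : (L : ℝ) * g * 2 ^ n * (1 / 4) ^ n ≤ 1 / (4 * c) := by
        have e : (2 : ℝ) ^ n * (1 / 4) ^ n * 2 ^ n = 1 := by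
          rw [← mul_pow, ← mul_pow]; norm_num
        have h7 : (L : ℝ) * g ≤ 2 ^ n / (4 * c) := by
          calc (L : ℝ) * g ≤ 2 ^ n / (4 * c * g) * g := mul_le_mul_of_nonneg_right hL1 hg0.le
            _ = 2 ^ n / (4 * c) := by field_simp
        calc (L : ℝ) * g * 2 ^ n * (1 / 4) ^ n = (L * g) * (2 ^ n * (1 / 4) ^ n) := by ring
          _ ≤ 2 ^ n / (4 * c) * (2 ^ n * (1 / 4) ^ n) :=
              mul_le_mul_of_nonneg_right h7 (by positivity)
          _ = (2 ^ n * (1 / 4) ^ n * 2 ^ n) / (4 * c) := by ring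
          _ = 1 / (4 * c) := by rw [e]
      have h8 := hfn a
      have h9 : (c : ℝ) * ‖f a‖ ≤ c * (2 * (1 / (4 * c))) :=
        mul_le_mul_of_nonneg_left (by linarith) hc0'.le
      have h10 : (c : ℝ) * (2 * (1 / (4 * c))) = 1 / 2 := by field_simp; norm_num
      linarith
    have hcard : (L + 1) ^ N ≤ m ^ n := by
      have h1 : Fintype.card (Fin N → Fin (L + 1)) ≤ t.card := by
        rw [← Finset.card_univ]
        exact Finset.card_le_card_of_injOn d (fun k _ => hdt k) (hinj.injOn)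
      rw [Fintype.card_fun, Fintype.card_fin, Fintype.card_fin] at h1
      exact h1.trans htc
    calc ((2 : ℝ) ^ n / (4 * c * g)) ^ N ≤ ((L : ℝ) + 1) ^ N :=
          pow_le_pow_left₀ (by positivity) hL2.le N
      _ ≤ (m : ℝ) ^ n := by exact_mod_cast hcard
  -- contradiction for large `n`
  have hq : (1 : ℝ) < 2 ^ N / m := by
    rw [one_lt_div (by exact_mod_cast hm0)]
    exact_mod_cast hN
  have hlarge : ∀ᶠ n : ℕ in atTop, (4 * c * g : ℝ) ^ N < (2 ^ N / m : ℝ) ^ n :=
    (tendsto_pow_atTop_atTop_of_one_lt hq).eventually_gt_atTop _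
  have hfreq := hgr (Real.log 2 / N) (by
    have : (0 : ℝ) < N := by exact_mod_cast hN0
    have := Real.log_pos (one_lt_two (α := ℝ))
    positivity)
  obtain ⟨n, hn1, hn2⟩ := (hfreq.and_eventually hlarge).exists
  have h1 := key n hn1
  have hmn : (0 : ℝ) < (m : ℝ) ^ n := by positivity
  rw [div_pow, div_le_iff₀ (by positivity)] at h1
  rw [div_pow, lt_div_iff₀ hmn] at hn2
  have e : ((2 : ℝ) ^ N) ^ n = (2 ^ n) ^ N := by rw [← pow_mul, ← pow_mul, mul_comm]
  rw [e] at hn2
  nlinarith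

/-- a vector annihilated by a nonzero polynomial in `T` gives an eigenvector -/
theorem exists_eigenvector (T : X →L[ℂ] X) (x : X) (hx : x ≠ 0) :
    ∀ (n : ℕ) (p : ℂ[X]), p.natDegree ≤ n → p ≠ 0 → (aeval T p) x = 0 →
      ∃ (μ : ℂ) (v : X), v ≠ 0 ∧ T v = μ • v := by
  intro n
  induction n with
  | zero =>
    intro p hp hp0 hpx
    exfalso
    have h1 : p = C (p.coeff 0) := eq_C_of_natDegree_le_zero hp
    have h2 : p.coeff 0 ≠ 0 := fun h => hp0 (by rw [h1, h, C_0])
    rw [h1, aeval_C] at hpx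
    have h3 : (algebraMap ℂ (X →L[ℂ] X) (p.coeff 0)) x = p.coeff 0 • x := by
      rw [Algebra.algebraMap_eq_smul_one]; rfl
    rw [h3] at hpx
    rcases smul_eq_zero.1 hpx with h | h
    · exact h2 h
    · exact hx h
  | succ n ih =>
    intro p hp hp0 hpx
    by_cases hdeg : p.natDegree = 0
    · exact ih p (by omega) hp0 hpx
    · obtain ⟨μ, hμ⟩ := IsAlgClosed.exists_root p (by
        rw [degree_eq_natDegree hp0]
        exact_mod_cast hdeg)
      obtain ⟨q, hq⟩ := dvd_iff_isRoot.2 hμ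
      have hq0 : q ≠ 0 := by
        rintro rfl
        exact hp0 (by rw [hq, mul_zero])
      have hqd : q.natDegree ≤ n := by
        have : p.natDegree = q.natDegree + 1 := by
          rw [hq, natDegree_mul (X_sub_C_ne_zero μ) hq0, natDegree_X_sub_C, add_comm]
        omega
      by_cases hqx : (aeval T q) x = 0
      · exact ih q hqd hq0 hqx
      · refine ⟨μ, (aeval T q) x, hqx, ?_⟩
        rw [hq, map_mul, map_sub, aeval_X, aeval_C] at hpx
        have h3 : ((T - algebraMap ℂ (X →L[ℂ] X) μ) * aeval T q) x =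
            T ((aeval T q) x) - μ • (aeval T q) x := by
          rw [Algebra.algebraMap_eq_smul_one]; rfl
        rw [h3] at hpx
        exact sub_eq_zero.1 hpx

end Vale.Agent.P131.Chain
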