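import Vale.Agent.P131.Hilden

/-!
# P131: chains of operators intertwined by a compact operator
-/

namespace Vale.Agent.P131.Chain

open Filter Topology Polynomial

variable {X : Type*} [NormedAddCommGroup X] [NormedSpace ℂ X]

/-- `T` is not a multiple of the identity -/
def Nonscalar (T : X →L[ℂ] X) : Prop := ∀ c : ℂ, T ≠ c • 1

/-- `B` commutes with every operator that commutes with `T` -/
def Bicommutes (T B : X →L[ℂ] X) : Prop := ∀ A : X →L[ℂ] X, A * T = T * A → A * B = B * A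

/-- `S 0 = T`, all `S n` lie in the bicommutant of `T`, and `S n K = K S (n + 1)` -/
def Forward (T K : X →L[ℂ] X) (S : ℕ → X →L[ℂ] X) : Prop :=
  S 0 = T ∧ (∀ n, Bicommutes T (S n)) ∧ ∀ n, S n * K = K * S (n + 1)

/-- `S 0 = T`, all `S n` lie in the bicommutant of `T`, and `S (n + 1) K = K S n` -/
def Backward (T K : X →L[ℂ] X) (S : ℕ → X →L[ℂ] X) : Prop :=
  S 0 = T ∧ (∀ n, Bicommutes T (S n)) ∧ ∀ n, S (n + 1) * K = K * S n

/-- for every `ε > 0` one has `‖S n‖ ≤ e ^ (ε n)` for infinitely many `n` -/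
def Subexponential (S : ℕ → X →L[ℂ] X) : Prop :=
  ∀ ε : ℝ, 0 < ε → ∃ᶠ n : ℕ in atTop, ‖S n‖ ≤ Real.exp (ε * n)

/-- for some `x ≠ 0` and every `c > 0` there is `k` with `c ^ n ‖(S n) ^ k x‖ → 0` -/
def LocallyFast (S : ℕ → X →L[ℂ] X) : Prop :=
  ∃ x : X, x ≠ 0 ∧ ∀ c : ℝ, 0 < c → ∃ k : ℕ, Tendsto (fun n => c ^ n * ‖(S n ^ k) x‖) atTop (𝓝 0)

/-- `T, p(T), p(p(T)), …` -/
noncomputable def iterates (p : ℂ[X]) (T : X →L[ℂ] X) : ℕ → X →L[ℂ] X :=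
  fun n => (fun A : X →L[ℂ] X => aeval A p)^[n] T

/-- `‖T ^ n‖ ≤ B s ^ n` for all `n` and `∑ |p_i| s ^ i ≤ s`, for some `B` and `s > 0` -/
def Majorized (p : ℂ[X]) (T : X →L[ℂ] X) : Prop :=
  ∃ s B : ℝ, 0 < s ∧ ∑ i ∈ Finset.range (p.natDegree + 1), ‖p.coeff i‖ * s ^ i ≤ s ∧
    ∀ n : ℕ, ‖T ^ n‖ ≤ B * s ^ n

/-- the spectrum of `T` lies in the basin of an attracting fixed point of `p` -/
def InBasin (p : ℂ[X]) (T : X →L[ℂ] X) : Prop :=
  ∃ z₀ : ℂ, p.eval z₀ = z₀ ∧ ‖p.derivative.eval z₀‖ < 1 ∧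
    ∀ z ∈ spectrum ℂ T, Tendsto (fun k => (fun z => p.eval z)^[k] z) atTop (𝓝 z₀)

/-- `T K = K p(T)` or `p(T) K = K T` -/
def Intertwined (p : ℂ[X]) (T K : X →L[ℂ] X) : Prop :=
  T * K = K * aeval T p ∨ aeval T p * K = K * T

/-- one of three conditions on the behaviour of the iterates of `p` at `T` -/
def Tame (p : ℂ[X]) (T : X →L[ℂ] X) : Prop :=
  Subexponential (iterates p T) ∨ Majorized p T ∨ InBasin p T

end Vale.Agent.P131.Chain
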