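import Vale.Agent.P131.Chain.Schauder

/-!
# P131: Lomonosov's lemma
-/

namespace Vale.Agent.P131.Chain

open Set Metric Filter Topology

variable {X : Type*} [NormedAddCommGroup X] [NormedSpace ℂ X]

/-- **Lomonosov's lemma**: for a topologically transitive space `𝒜` of operators and a nonzero
compact operator `K` some `A K`, `A ∈ 𝒜`, has a nonzero fixed vector. -/
theorem lomonosov (𝒜 : Submodule ℂ (X →L[ℂ] X))
    (htr : ∀ y : X, y ≠ 0 → ∀ z : X, ∀ ε : ℝ, 0 < ε → ∃ A ∈ 𝒜, ‖A y - z‖ < ε)
    (K : X →L[ℂ] X) (hK0 : K ≠ 0) (hK : IsCompactOperator K) :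
    ∃ A ∈ 𝒜, ∃ x : X, x ≠ 0 ∧ A (K x) = x := by
  classical
  obtain ⟨x1, hx1⟩ : ∃ x1, K x1 ≠ 0 := by
    by_contra h
    push Not at h
    exact hK0 (ContinuousLinearMap.ext h)
  have hn1 : 0 < ‖K x1‖ := norm_pos_iff.2 hx1
  -- the centre of the ball
  set r : ℝ := (‖K‖ + 1) / ‖K x1‖ with hr
  have hr0 : 0 < r := by positivity
  set x0 : X := (r : ℂ) • x1 with hx0
  have hKx0 : ‖K x0‖ = ‖K‖ + 1 := by
    rw [hx0, map_smul, norm_smul, Complex.norm_real, Real.norm_eq_abs, abs_of_pos hr0, hr]
    field_simp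
  have hBK : ∀ x ∈ closedBall x0 1, 1 ≤ ‖K x‖ := fun x hx => by
    rw [mem_closedBall, dist_eq_norm] at hx
    have h1 : ‖K (x0 - x)‖ ≤ ‖K‖ * 1 := by
      refine (K.le_opNorm _).trans ?_
      rw [norm_sub_rev]
      exact mul_le_mul_of_nonneg_left hx (norm_nonneg _)
    have h2 : ‖K x0‖ ≤ ‖K x‖ + ‖K (x0 - x)‖ := by
      have : K x0 = K x + K (x0 - x) := by rw [← map_add]; congr 1; abel
      rw [this]; exact norm_add_le _ _
    linarith
  have hB0 : (0 : X) ∉ closedBall x0 1 := fun h => by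
    have := hBK 0 h
    rw [map_zero, norm_zero] at this
    linarith
  set D : Set X := closure (K '' closedBall x0 1) with hD
  have hDk : IsCompact D := hK.isCompact_closure_image_of_bounded isBounded_closedBall
  have hDn : ∀ y ∈ D, y ≠ 0 := by
    intro y hy h0
    have h1 : D ⊆ {y | 1 ≤ ‖y‖} := by
      refine closure_minimal ?_ (isClosed_le continuous_const continuous_norm)
      rintro _ ⟨x, hx, rfl⟩
      exact hBK x hx
    have := h1 hy
    rw [h0] at this
    simp only [Set.mem_ofPred_eq, norm_zero] at this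
    linarith
  -- finite subcover
  obtain ⟨t, ht⟩ := hDk.elim_finite_subcover
    (fun A : 𝒜 => {y : X | ‖(A : X →L[ℂ] X) y - x0‖ < 1})
    (fun A => isOpen_lt (by fun_prop) continuous_const) (by
      intro y hy
      obtain ⟨A, hA, hAy⟩ := htr y (hDn y hy) x0 1 one_pos
      exact mem_iUnion.2 ⟨⟨A, hA⟩, hAy⟩)
  set w : 𝒜 → X → ℝ := fun A y => max 0 (1 - ‖(A : X →L[ℂ] X) y - x0‖) with hw
  have hw0 : ∀ A y, 0 ≤ w A y := fun A y => le_max_left _ _
  have hwc : ∀ A, Continuous (w A) := fun A => by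
    simp only [hw]; fun_prop
  set s : X → ℝ := fun y => ∑ A ∈ t, w A y with hs
  have hsc : Continuous s := by
    simp only [hs]; exact continuous_finsetSum _ fun A _ => hwc A
  have hspos : ∀ y ∈ D, 0 < s y := fun y hy => by
    have h1 := ht hy
    simp only [mem_iUnion, exists_prop] at h1
    obtain ⟨A, hA, hAy⟩ := h1
    refine lt_of_lt_of_le ?_ (Finset.single_le_sum (fun A _ => hw0 A y) hA)
    simp only [hw]
    have hAy' : ‖(A : X →L[ℂ] X) y - x0‖ < 1 := hAy
    exact lt_max_of_lt_right (by linarith)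
  have hsum : ∀ y ∈ D, ∑ A ∈ t, w A y / s y = 1 := fun y hy => by
    rw [← Finset.sum_div]
    exact div_self (hspos y hy).ne'
  -- the compact set
  set Q0 : Set X := (fun p : (𝒜 → ℝ) × X => ∑ A ∈ t, (p.1 A) • ((A : X →L[ℂ] X) p.2)) ''
    ((Set.univ.pi fun _ : 𝒜 => Icc (0 : ℝ) 1) ×ˢ D) with hQ0
  have hQ0k : IsCompact Q0 := by
    refine ((isCompact_univ_pi fun _ => isCompact_Icc).prod hDk).image ?_
    refine continuous_finsetSum _ fun A _ => ?_
    exact ((continuous_apply A).comp continuous_fst).smul (A.1.continuous.comp continuous_snd)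
  set Q : Set X := Q0 ∩ closedBall x0 1 with hQ
  have hQk : IsCompact Q := hQ0k.inter_right isClosed_closedBall
  set Φ : X → X := fun x => ∑ A ∈ t, (w A (K x) / s (K x)) • ((A : X →L[ℂ] X) (K x)) with hΦ
  have hKD : ∀ x ∈ closedBall x0 1, K x ∈ D := fun x hx => subset_closure ⟨x, hx, rfl⟩
  have hΦc : ContinuousOn Φ (closedBall x0 1) := by
    simp only [hΦ]
    refine continuousOn_finsetSum _ fun A _ => ?_
    have h1 : ContinuousOn (fun x => w A (K x) / s (K x)) (closedBall x0 1) :=
      ((hwc A).comp K.continuous).continuousOn.div (hsc.comp K.continuous).continuousOn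
        fun x hx => (hspos _ (hKD x hx)).ne'
    have h2 : ContinuousOn (fun x => (A : X →L[ℂ] X) (K x)) (closedBall x0 1) :=
      (A.1.continuous.comp K.continuous).continuousOn
    exact h1.smul h2
  have hΦQ : MapsTo Φ (closedBall x0 1) Q := by
    intro x hx
    have hy := hKD x hx
    have hc0 : ∀ A : 𝒜, 0 ≤ w A (K x) / s (K x) := fun A =>
      div_nonneg (hw0 A _) (hspos _ hy).le
    constructor
    · refine ⟨(fun A => if A ∈ t then w A (K x) / s (K x) else 0, K x), ⟨?_, hy⟩, ?_⟩
      · intro A _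
        show (if A ∈ t then w A (K x) / s (K x) else 0) ∈ Icc (0 : ℝ) 1
        by_cases hA : A ∈ t
        · rw [if_pos hA]
          refine ⟨hc0 A, ?_⟩
          rw [← hsum _ hy]
          exact Finset.single_le_sum (fun A _ => hc0 A) hA
        · rw [if_neg hA]
          exact ⟨le_rfl, zero_le_one⟩
      · show ∑ A ∈ t, (if A ∈ t then w A (K x) / s (K x) else 0) • ((A : X →L[ℂ] X) (K x)) = Φ x
        simp only [hΦ]
        refine Finset.sum_congr rfl fun A hA => ?_
        rw [if_pos hA]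
    · have h2 : Φ x = ∑ A ∈ t, (w A (K x) / s (K x)) •
          (if w A (K x) = 0 then x0 else (A : X →L[ℂ] X) (K x)) := by
        simp only [hΦ]
        refine Finset.sum_congr rfl fun A _ => ?_
        by_cases h : w A (K x) = 0
        · simp [h]
        · simp [h]
      rw [h2]
      refine (convex_closedBall x0 1).sum_mem (fun A _ => hc0 A) (hsum _ hy) ?_
      intro A _
      by_cases h : w A (K x) = 0
      · rw [if_pos h]
        exact mem_closedBall_self zero_le_one
      · rw [if_neg h, mem_closedBall, dist_eq_norm]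
        by_contra hcon
        apply h
        simp only [hw]
        exact max_eq_left (by linarith)
  obtain ⟨x, hx, hfx⟩ := schauder (convex_closedBall x0 1) hQk inter_subset_right
    ⟨Φ x0, hΦQ (mem_closedBall_self zero_le_one)⟩ hΦc hΦQ
  refine ⟨∑ A ∈ t, ((w A (K x) / s (K x) : ℝ) : ℂ) • (A : X →L[ℂ] X),
    Submodule.sum_mem _ fun A _ => Submodule.smul_mem _ _ A.2, x, ?_, ?_⟩
  · rintro rfl
    exact hB0 hx
  · rw [_root_.sum_apply]
    conv_rhs => rw [← hfx]
    simp only [hΦ]
    refine Finset.sum_congr rfl fun A _ => ?_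
    rw [_root_.smul_apply, Complex.coe_smul]

end Vale.Agent.P131.Chain
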