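import Vale.Agent.P131.Hilden
import Vale.Agent.P131.Chain.Lomonosov
import Vale.Agent.P131.Chain.Cover

/-!
# P131: an extension of Lomonosov's theorem
-/

namespace Vale.Agent.P131.Chain

open Set Metric Filter Topology Polynomial

variable {X : Type*} [NormedAddCommGroup X] [NormedSpace ℂ X]

/-- without nontrivial hyperinvariant subspace the commutant acts transitively -/
theorem transitive_of_not {T : X →L[ℂ] X} (h : ¬ HasHyperinvariant T) (y : X) (hy : y ≠ 0)
    (z : X) (ε : ℝ) (hε : 0 < ε) :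
    ∃ A ∈ Subalgebra.toSubmodule (Subalgebra.centralizer ℂ ({T} : Set (X →L[ℂ] X))),
      ‖A y - z‖ < ε := by
  set 𝒜 := Subalgebra.toSubmodule (Subalgebra.centralizer ℂ ({T} : Set (X →L[ℂ] X))) with h𝒜
  have hmem : ∀ A : X →L[ℂ] X, A ∈ 𝒜 ↔ A * T = T * A := fun A => by
    rw [h𝒜, Subalgebra.mem_toSubmodule, Subalgebra.mem_centralizer_iff]
    simp only [mem_singleton_iff, forall_eq]
    exact eq_comm
  -- the orbit of `y`
  set ev : (X →L[ℂ] X) →ₗ[ℂ] X :=
    { toFun := fun A => A y, map_add' := fun _ _ => rfl, map_smul' := fun _ _ => rfl } with hev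
  set M0 : Submodule ℂ X := 𝒜.map ev with hM0
  set M : Submodule ℂ X := M0.topologicalClosure with hM
  have hcl : IsClosed (M : Set X) := M0.isClosed_topologicalClosure
  have hyM : y ∈ M := by
    refine M0.le_topologicalClosure ?_
    exact ⟨1, (hmem 1).2 (by rw [one_mul, mul_one]), rfl⟩
  have hinv : ∀ A : X →L[ℂ] X, A * T = T * A → ∀ x ∈ M, A x ∈ M := by
    intro A hA x hx
    have h1 : MapsTo A (M0 : Set X) (M0 : Set X) := by
      rintro _ ⟨B, hB, rfl⟩
      refine ⟨A * B, ?_, rfl⟩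
      have hB' := (hmem B).1 hB
      exact (hmem _).2 (by rw [mul_assoc, hB', ← mul_assoc, hA, mul_assoc])
    exact map_mem_closure A.continuous hx h1
  have htop : M = ⊤ := by
    by_contra hne
    refine h ⟨M, hcl, ?_, hne, hinv⟩
    intro hbot
    rw [hbot, Submodule.mem_bot] at hyM
    exact hy hyM
  have hz : z ∈ closure (M0 : Set X) := by
    have : z ∈ M := by rw [htop]; trivial
    exact this
  obtain ⟨_, ⟨A, hA, rfl⟩, hAz⟩ := Metric.mem_closure_iff.1 hz ε hε
  refine ⟨A, hA, ?_⟩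
  rw [dist_comm, dist_eq_norm] at hAz
  exact hAz

/-- an eigenvector of a nonscalar operator gives a hyperinvariant subspace -/
theorem hasHyperinvariant_of_eigenvector {T : X →L[ℂ] X} (hT : ∀ c : ℂ, T ≠ c • 1) {μ : ℂ} {v : X}
    (hv : v ≠ 0) (hTv : T v = μ • v) : HasHyperinvariant T := by
  refine ⟨LinearMap.ker ((T - μ • (1 : X →L[ℂ] X) : X →L[ℂ] X) : X →ₗ[ℂ] X), ?_, ?_, ?_, ?_⟩
  · exact (T - μ • (1 : X →L[ℂ] X)).isClosed_ker
  · intro h
    have h1 : v ∈ LinearMap.ker ((T - μ • (1 : X →L[ℂ] X) : X →L[ℂ] X) : X →ₗ[ℂ] X) := by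
      rw [LinearMap.mem_ker]
      show T v - μ • v = 0
      rw [hTv, sub_self]
    rw [h, Submodule.mem_bot] at h1
    exact hv h1
  · intro h
    apply hT μ
    ext x
    have h1 : x ∈ LinearMap.ker ((T - μ • (1 : X →L[ℂ] X) : X →L[ℂ] X) : X →ₗ[ℂ] X) := by
      rw [h]; trivial
    rw [LinearMap.mem_ker] at h1
    have h2 : T x - μ • x = 0 := h1
    exact sub_eq_zero.1 h2
  · intro A hA x hx
    rw [LinearMap.mem_ker] at hx ⊢
    have h2 : T x - μ • x = 0 := hx
    show T (A x) - μ • A x = 0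
    have h3 : A (T x) = T (A x) := congrArg (fun B : X →L[ℂ] X => B x) hA
    rw [← h3, sub_eq_zero.1 h2, map_smul, sub_self]

/-- **Main theorem**, Banach space form. -/
theorem main (T K : X →L[ℂ] X) (hT : ∀ c : ℂ, T ≠ c • 1) (hK0 : K ≠ 0)
    (hK : IsCompactOperator K) (S : ℕ → X →L[ℂ] X) (hS0 : S 0 = T)
    (hSA : ∀ n (A : X →L[ℂ] X), A * T = T * A → A * S n = S n * A)
    (hSK : ∀ n, S n * K = K * S (n + 1))
    (hgr : ∀ ε : ℝ, 0 < ε → ∃ᶠ n : ℕ in atTop, ‖S n‖ ≤ Real.exp (ε * n)) :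
    HasHyperinvariant T := by
  by_contra hno
  obtain ⟨A, hA, x, hx0, hx⟩ := lomonosov _ (transitive_of_not hno) K hK0 hK
  have hAT : A * T = T * A := by
    rw [Subalgebra.mem_toSubmodule, Subalgebra.mem_centralizer_iff] at hA
    exact (hA T rfl).symm
  set C : X →L[ℂ] X := A * K with hC
  have hCc : IsCompactOperator C := hK.clm_comp A
  have hSC : ∀ n, S n * C = C * S (n + 1) := fun n => by
    rw [hC, ← mul_assoc, ← hSA n A hAT, mul_assoc, hSK, mul_assoc]
  have hTC : ∀ n, T * C ^ n = C ^ n * S n := fun n => by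
    induction n with
    | zero => rw [pow_zero, one_mul, mul_one, hS0]
    | succ n ih => rw [pow_succ, ← mul_assoc, ih, mul_assoc, hSC, ← mul_assoc]
  obtain ⟨N, hN⟩ := exists_dependent C T hCc x hx S hTC hgr
  rw [Fintype.not_linearIndependent_iff] at hN
  obtain ⟨g, hg, j0, hj0⟩ := hN
  set p : ℂ[X] := ∑ j : Fin N, monomial (j : ℕ) (g j) with hp
  have hp0 : p ≠ 0 := by
    intro h
    apply hj0
    have h1 : p.coeff (j0 : ℕ) = g j0 := by
      rw [hp, finsetSum_coeff, Finset.sum_eq_single j0]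
      · rw [coeff_monomial, if_pos rfl]
      · intro j _ hj
        rw [coeff_monomial, if_neg (fun h => hj (Fin.ext h))]
      · intro h; exact absurd (Finset.mem_univ _) h
    rw [← h1, h, coeff_zero]
  have hpx : (aeval T p) x = 0 := by
    rw [hp, map_sum, _root_.sum_apply, ← hg]
    refine Finset.sum_congr rfl fun j _ => ?_
    rw [aeval_monomial, Algebra.algebraMap_eq_smul_one, smul_mul_assoc, one_mul]
    rfl
  obtain ⟨μ, v, hv, hTv⟩ := exists_eigenvector T x hx0 p.natDegree p le_rfl hp0 hpx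
  exact hno (hasHyperinvariant_of_eigenvector hT hv hTv)

end Vale.Agent.P131.Chain
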