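import Vale.Agent.P371.Brouwer

/-!
# P131: Schauder's fixed point theorem

From Brouwer's theorem (`Vale.Agent.P371.brouwer`).
-/

namespace Vale.Agent.P131.Chain

open Set Metric Filter Topology

/-- Brouwer's theorem for compact convex subsets of finite-dimensional normed spaces. -/
theorem brouwer_normed {F : Type*} [NormedAddCommGroup F] [NormedSpace ℝ F]
    [FiniteDimensional ℝ F] {D : Set F} (hD : IsCompact D) (hc : Convex ℝ D) (hne : D.Nonempty)
    {f : F → F} (hf : ContinuousOn f D) (hfD : MapsTo f D D) : ∃ x ∈ D, f x = x := by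
  set e : F ≃L[ℝ] EuclideanSpace ℝ (Fin (Module.finrank ℝ F)) := toEuclidean with he
  have h1 : ContinuousOn (fun y => e (f (e.symm y))) (e '' D) := by
    refine e.continuous.comp_continuousOn (hf.comp e.symm.continuous.continuousOn ?_)
    rintro _ ⟨x, hx, rfl⟩
    rwa [e.symm_apply_apply]
  have h2 : MapsTo (fun y => e (f (e.symm y))) (e '' D) (e '' D) := by
    rintro _ ⟨x, hx, rfl⟩
    refine ⟨f x, hfD hx, ?_⟩
    show e (f x) = e (f (e.symm (e x)))
    rw [e.symm_apply_apply]
  obtain ⟨_, ⟨x, hx, rfl⟩, hy⟩ := Vale.Agent.P371.brouwer (hD.image e.continuous)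
    (hc.linear_image e.toLinearMap) (hne.image e) h1 h2
  refine ⟨x, hx, ?_⟩
  have h3 : e (f (e.symm (e x))) = e x := hy
  rw [e.symm_apply_apply] at h3
  exact e.injective h3

variable {X : Type*} [NormedAddCommGroup X] [NormedSpace ℝ X]

/-- an approximate fixed point -/
theorem approx_fixed {B Q : Set X} (hB : Convex ℝ B) (hQ : IsCompact Q) (hQB : Q ⊆ B)
    (hQne : Q.Nonempty) {Φ : X → X} (hΦ : ContinuousOn Φ B) (hΦQ : MapsTo Φ B Q) {ε : ℝ}
    (hε : 0 < ε) : ∃ x ∈ B, ‖Φ x - x‖ ≤ ε := by
  classical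
  obtain ⟨t0, ht0Q, ht0f, ht0⟩ := hQ.finite_cover_balls hε
  obtain ⟨t, rfl⟩ : ∃ t : Finset X, (t : Set X) = t0 := ⟨ht0f.toFinset, by simp⟩
  -- weights
  set w : X → X → ℝ := fun y z => max 0 (ε - ‖z - y‖) with hw
  have hw0 : ∀ y z, 0 ≤ w y z := fun y z => le_max_left _ _
  have hwc : ∀ y, Continuous (w y) := fun y => by
    simp only [hw]; fun_prop
  set s : X → ℝ := fun z => ∑ y ∈ t, w y z with hs
  have hsc : Continuous s := by
    simp only [hs]; exact continuous_finsetSum _ fun y _ => hwc y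
  have hspos : ∀ z ∈ Q, 0 < s z := fun z hz => by
    have h1 := ht0 hz
    simp only [mem_iUnion, exists_prop] at h1
    obtain ⟨y, hy, hzy⟩ := h1
    rw [mem_ball, dist_eq_norm] at hzy
    refine lt_of_lt_of_le ?_ (Finset.single_le_sum (fun y _ => hw0 y z) hy)
    simp only [hw]
    exact lt_max_of_lt_right (by linarith)
  set P : X → X := fun z => ∑ y ∈ t, (w y z / s z) • y with hP
  have hPspan : ∀ z, P z ∈ Submodule.span ℝ (t : Set X) := fun z =>
    Submodule.sum_mem _ fun y hy => Submodule.smul_mem _ _ (Submodule.subset_span hy)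
  have hPsum : ∀ z ∈ Q, ∑ y ∈ t, w y z / s z = 1 := fun z hz => by
    rw [← Finset.sum_div]
    exact div_self (hspos z hz).ne'
  have hPhull : ∀ z ∈ Q, P z ∈ convexHull ℝ (t : Set X) := fun z hz => by
    refine (convex_convexHull ℝ (t : Set X)).sum_mem (fun y _ => ?_) (hPsum z hz)
      (fun y hy => subset_convexHull ℝ _ hy)
    exact div_nonneg (hw0 y z) (hspos z hz).le
  have hPc : ContinuousOn P Q := by
    simp only [hP]
    refine continuousOn_finsetSum _ fun y _ => ContinuousOn.smul ?_ continuousOn_const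
    exact (hwc y).continuousOn.div hsc.continuousOn fun z hz => (hspos z hz).ne'
  have hPn : ∀ z ∈ Q, ‖P z - z‖ ≤ ε := fun z hz => by
    have h1 : P z ∈ closedBall z ε := by
      have hcc : Convex ℝ (closedBall z ε) := convex_closedBall z ε
      -- replace the vectors of weight zero by `z`
      have h2 : P z = ∑ y ∈ t, (w y z / s z) • (if w y z = 0 then z else y) := by
        simp only [hP]
        refine Finset.sum_congr rfl fun y _ => ?_
        by_cases h : w y z = 0
        · simp [h]
        · simp [h]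
      rw [h2]
      refine hcc.sum_mem (fun y _ => div_nonneg (hw0 y z) (hspos z hz).le) (hPsum z hz) ?_
      intro y _
      by_cases h : w y z = 0
      · rw [if_pos h]
        exact mem_closedBall_self hε.le
      · rw [if_neg h, mem_closedBall, dist_eq_norm, norm_sub_rev]
        by_contra hcon
        apply h
        simp only [hw]
        exact max_eq_left (by linarith)
    rwa [mem_closedBall, dist_eq_norm] at h1
  -- the finite-dimensional problem
  set F : Submodule ℝ X := Submodule.span ℝ (t : Set X) with hF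
  have : FiniteDimensional ℝ F := FiniteDimensional.span_finset ℝ t
  set D : Set F := (fun x : F => (x : X)) ⁻¹' convexHull ℝ (t : Set X) with hD
  have hDc : Convex ℝ D := (convex_convexHull ℝ (t : Set X)).linear_preimage F.subtype
  have hhullF : convexHull ℝ (t : Set X) ⊆ (F : Set X) :=
    convexHull_min Submodule.subset_span F.convex
  have hDk : IsCompact D := by
    have hcl : IsClosedEmbedding (fun x : F => (x : X)) :=
      (Submodule.closed_of_finiteDimensional F).isClosedEmbedding_subtypeVal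
    exact hcl.isCompact_preimage (t.finite_toSet.isCompact_convexHull (𝕜 := ℝ))
  have hhullB : convexHull ℝ (t : Set X) ⊆ B := convexHull_min (ht0Q.trans hQB) hB
  have htne : (t : Set X).Nonempty := by
    obtain ⟨z, hz⟩ := hQne
    have h1 := ht0 hz
    simp only [mem_iUnion, exists_prop] at h1
    obtain ⟨y, hy, -⟩ := h1
    exact ⟨y, hy⟩
  have hDne : D.Nonempty := by
    obtain ⟨y, hy⟩ := htne
    exact ⟨⟨y, Submodule.subset_span hy⟩, subset_convexHull ℝ _ hy⟩
  obtain ⟨x, hx, hfx⟩ := brouwer_normed hDk hDc hDne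
    (f := fun x : F => (⟨P (Φ x), hPspan _⟩ : F)) (by
      have h9 : ContinuousOn (fun x : F => P (Φ x)) D := by
        refine hPc.comp (hΦ.comp continuous_subtype_val.continuousOn ?_) ?_
        · intro y hy; exact hhullB hy
        · intro y hy; exact hΦQ (hhullB hy)
      exact Topology.IsInducing.subtypeVal.continuousOn_iff.2 h9) (by
      intro y hy
      exact hPhull _ (hΦQ (hhullB hy)))
  have hxB : (x : X) ∈ B := hhullB hx
  refine ⟨x, hxB, ?_⟩
  have h1 : P (Φ x) = x := congrArg Subtype.val hfx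
  have h2 := hPn _ (hΦQ hxB)
  rw [h1, norm_sub_rev] at h2
  exact h2

/-- **Schauder's fixed point theorem**. -/
theorem schauder {B Q : Set X} (hB : Convex ℝ B) (hQ : IsCompact Q) (hQB : Q ⊆ B)
    (hQne : Q.Nonempty) {Φ : X → X} (hΦ : ContinuousOn Φ B) (hΦQ : MapsTo Φ B Q) :
    ∃ x ∈ B, Φ x = x := by
  have h : ∀ n : ℕ, ∃ x ∈ B, ‖Φ x - x‖ ≤ 1 / ((n : ℝ) + 1) := fun n =>
    approx_fixed hB hQ hQB hQne hΦ hΦQ (by positivity)
  choose x hxB hx using h
  obtain ⟨q, hq, φ, hφ, hlim⟩ := hQ.tendsto_subseq (fun n => hΦQ (hxB n))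
  have hx2 : Tendsto (fun n => x (φ n)) atTop (𝓝 q) := by
    have h0 : Tendsto (fun n => Φ (x (φ n)) - x (φ n)) atTop (𝓝 0) := by
      rw [tendsto_zero_iff_norm_tendsto_zero]
      refine squeeze_zero (fun n => norm_nonneg _) (fun n => hx (φ n)) ?_
      exact tendsto_one_div_add_atTop_nhds_zero_nat.comp hφ.tendsto_atTop
    have h1 := hlim.sub h0
    rw [sub_zero] at h1
    refine h1.congr fun n => ?_
    show Φ (x (φ n)) - (Φ (x (φ n)) - x (φ n)) = x (φ n)
    abel
  refine ⟨q, hQB hq, ?_⟩
  have h3 : Tendsto (fun n => Φ (x (φ n))) atTop (𝓝 (Φ q)) := by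
    have h4 : Tendsto (fun n => x (φ n)) atTop (𝓝[B] q) :=
      tendsto_nhdsWithin_iff.2 ⟨hx2, Eventually.of_forall fun n => hxB _⟩
    exact (hΦ q (hQB hq)).tendsto.comp h4
  exact tendsto_nhds_unique h3 hlim

end Vale.Agent.P131.Chain
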